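import Vale.Agent.Lib.P154Anti.Cert.D14.Table0
import Vale.Agent.Lib.P154Anti.Cert.D14.Masses

namespace Vale.Agent.Lib.P154Anti.Cert.D14

open Vale.Agent.Lib.P154Anti

theorem L40 : lvlOK3 cfg par tblI0 tblE0 vE vc Q40 17590532190459 Q41 = true := by decide +kernel

theorem L41 : lvlOK3 cfg par tblI0 tblE0 vE vc Q41 17590896720899 Q42 = true := by decide +kernel

theorem L42 : lvlOK3 cfg par tblI0 tblE0 vE vc Q42 17591014706284 Q43 = true := by decide +kernel

theorem L43 : lvlOK3 cfg par tblI0 tblE0 vE vc Q43 17590765303045 Q44 = true := by decide +kernel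

end Vale.Agent.Lib.P154Anti.Cert.D14
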